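import Vale.Agent.P019.Main
import Vale.Agent.P019.Stmt

open Vale.Agent.P019 hiding V cls
open Vale.Agent.P019.Stmt

theorem Vale.Agent.Results.P019.Full.result (ℓ : ℕ) [Fact ℓ.Prime]
    (k K l L : Type*) [Field k] [Field K] [Field l] [Field L] [Algebra k K] [Algebra l L]
    [IsAlgClosed k] [IsAlgClosed l]
    (hK : (⊤ : IntermediateField k K).FG) (hL : (⊤ : IntermediateField l L).FG)
    (dK : 2 ≤ Algebra.trdeg k K) (dL : 2 ≤ Algebra.trdeg l L)
    (hk : (ℓ : k) ≠ 0) (hl : (ℓ : l) ≠ 0)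
    (Θ : V ℓ K ≃ₗ[ZMod ℓ] V ℓ L) (hΘ : Compatible (cls ℓ K) (cls ℓ L) Θ) :
    ∃ (c : (ZMod ℓ)ˣ)
      (α : perfectClosure K (AlgebraicClosure K) ≃+* perfectClosure L (AlgebraicClosure L)),
      α '' Set.range (algebraMap k (perfectClosure K (AlgebraicClosure K))) =
        Set.range (algebraMap l (perfectClosure L (AlgebraicClosure L))) ∧
      ∀ (x : Kˣ) (y : Lˣ), Θ (cls ℓ K x) = cls ℓ L y →
        clsMap ℓ (algebraMap L (perfectClosure L (AlgebraicClosure L))) y = (c : ZMod ℓ) •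
          clsMap ℓ (α.toRingHom.comp (algebraMap K (perfectClosure K (AlgebraicClosure K)))) x := by
  haveI : Algebra.EssFiniteType k K := IntermediateField.fg_top_iff.1 hK
  haveI : Algebra.EssFiniteType l L := IntermediateField.fg_top_iff.1 hL
  obtain ⟨d₁, h₁⟩ := exists_isFF (k := k) (K := K)
  obtain ⟨d₂, h₂⟩ := exists_isFF (k := l) (K := L)
  have e₁ : 2 ≤ d₁ := by rw [h₁.trdeg] at dK; exact_mod_cast dK
  have e₂ : 2 ≤ d₂ := by rw [h₂.trdeg] at dL; exact_mod_cast dL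
  obtain ⟨d₁, rfl⟩ := Nat.exists_eq_add_of_le' e₁
  obtain ⟨d₂, rfl⟩ := Nat.exists_eq_add_of_le' e₂
  have hc : Compat Θ := compat_of_rel Θ hΘ
  have e : d₁ = d₂ := by
    have a := dim_le hc hl h₁ h₂
    have b := dim_le hc.symm hk h₂ h₁
    omega
  subst e
  obtain ⟨c, β, α, hc0, hα, hsurj, hV⟩ := exists_hom hc hk hl h₁ h₂
  obtain ⟨α', hα'⟩ := exists_perf_equiv α hsurj
  refine ⟨Units.mk0 c hc0, α', ?_, fun x y hxy => ?_⟩
  · ext w
    constructor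
    · rintro ⟨_, ⟨a, rfl⟩, rfl⟩
      exact ⟨β a, ((hα' _).trans (hα a)).symm⟩
    · rintro ⟨b, rfl⟩
      exact ⟨_, ⟨β.symm b, rfl⟩, ((hα' _).trans (hα _)).trans (by rw [β.apply_symm_apply]; rfl)⟩
  · have hxy' : Θ (Vale.Agent.P019.cls ℓ x) = Vale.Agent.P019.cls ℓ y := hxy
    have := hV (Vale.Agent.P019.cls ℓ x)
    rw [hxy', ← cl_coe, ← cl_coe, Vmap_cl, Vmap_cl, ← hα'] at this
    change Vale.Agent.P019.cls ℓ _ = c • Vale.Agent.P019.cls ℓ _
    rw [← cl_coe, ← cl_coe]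
    exact this
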